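import Vale.Agent.P233.CD.If3b
import Vale.Agent.P233.N2.RA.Defs

/-! P233, stage 3: the block `CD.Blk_N2` from Theorem N with a density function. -/

set_option linter.all false

open MeasureTheory Filter Topology Set Metric
open scoped ENNReal NNReal MeasureTheory

universe u

namespace Vale.Agent.P233.N2.RA


theorem nsp_of {M : Type u} [MetricSpace M] [CompleteSpace M] [SecondCountableTopology M]
    [MeasurableSpace M] [BorelSpace M] {m : Measure M} {n : ℕ} {K : ℝ} {θ : M → ℝ} (hn : 2 ≤ n)
    (hG : RG.GeoN m n) (ht : CD.Th m n θ) (hQ : RG.Quadr m) (hS : RG.S2L m) (hL : RG.LC m n K)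
    (hW : CD.WGrad m) : NSp m n K θ := by
  refine
    { n_pos := lt_of_lt_of_le two_pos hn
      proper := hG.geo.proper
      geo := hG.geo.geod
      full := hG.full
      fin := hG.fin
      growth := hG.growth
      upper := fun x₀ R => ?_
      θ_meas := ht.meas
      θ_bd := ht.bd
      dens := ht.dens
      quadratic := hQ
      s2l := hS
      ww_slope := hW
      lc := hL }
  obtain ⟨c, -, C, h⟩ := hG.geo.vol x₀ (max R 1)
  exact ⟨C, fun x hx r h1 h2 => (h x (ball_subset_ball (le_max_left _ _) hx) r h1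
    (h2.trans (le_max_right _ _))).2⟩

theorem blk_N2_of (h : PartN.{u}) : CD.Blk_N2.{u} :=
  fun M _ _ _ _ _ m n K θ hn hG ht hQ hS hL hW => h M m n K θ (nsp_of hn hG ht hQ hS hL hW)

end Vale.Agent.P233.N2.RA
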